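import Vale.Agent.P224.R2.H577.EntK

/-!
The near range of a block of dimensions from lists of checked entries, when all instances of the
law that fit the block are given.
-/

namespace Vale.Agent.P224.R2.H253

open MeasureTheory Set Filter Function Real Module Matrix Vale.Agent.P224
  Vale.Agent.P224.R2.H820 Vale.Agent.P224.R2.H582 Vale.Agent.P224.R2.H627
  Vale.Agent.P224.R2.H728 Vale.Agent.P224.R2.H484 Vale.Agent.P224.R2.H925
open Vale.Agent.P224.SM2 hiding ker
open Vale.Agent.P224.R2.H577 (EntX EntK entXOK entKOK NearU nearU_of nearU_K ent_mem inOK_m)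
open Vale.Agent.P224.R2.H176 (NearData NearOut)
open Vale.Agent.P224.R2.H684 (nearX nearOut_ofX)
open scoped Topology RealInnerProductSpace ContDiff Manifold

set_option linter.unusedSectionVars false

/-- all instances of the law of a dimension that fit a block -/
def LawB (V : Type*) {W M : Type*} [NormedAddCommGroup V] [InnerProductSpace ℝ V]
    [FiniteDimensional ℝ V] [NormedAddCommGroup W] [InnerProductSpace ℝ W]
    [FiniteDimensional ℝ W] [TopologicalSpace M] [ChartedSpace V M]
    [MeasurableSpace V] [BorelSpace V] [MeasurableSpace M] [BorelSpace M]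
    [MeasurableSpace W] [BorelSpace W]
    (B : BlkQ) (ν : ℝ) (m : ℕ) (F : M → W) : Prop :=
  ∀ (nums : List NumE) (p : ParQ) (laws : List LawQ), inOK B m nums p laws = true →
    ∀ (N : M → W) (b : OrthonormalBasis (Fin (finrank ℝ W)) ℝ W)
      (j : Fin (finrank ℝ W) → ℝ), NearData V F N b j ν → LawIn V F N m p laws b j

section

variable {V W M : Type*} [NormedAddCommGroup V] [InnerProductSpace ℝ V] [FiniteDimensional ℝ V]
  [NormedAddCommGroup W] [InnerProductSpace ℝ W] [FiniteDimensional ℝ W]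
  [TopologicalSpace M] [ChartedSpace V M]
  [MeasurableSpace V] [BorelSpace V] [MeasurableSpace M] [BorelSpace M]
  [MeasurableSpace W] [BorelSpace W] [IsManifold 𝓘(ℝ, V) ∞ M]
  [CompactSpace M] [T2Space M]

/-- **the near range of one dimension** from an entry of the first form -/
theorem nearU_XB [Nonempty M] {B : BlkQ} {ν : ℚ} {H D : ℕ → ℚ} {e : EntX}
    (he : entXOK B ν H D e = true) (hmm : e.m = finrank ℝ V) {F : M → W}
    (hlaw : LawB V B ν e.m F) : NearU V ν H D F := by
  simp only [entXOK, Bool.and_eq_true, decide_eq_true_eq] at he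
  obtain ⟨⟨⟨⟨hin, hok⟩, hels⟩, h4⟩, h5⟩ := he
  have hpm := inOK_m hin
  have hl := hlaw _ _ _ hin
  simp only [inOK, Bool.and_eq_true, decide_eq_true_eq] at hin
  obtain ⟨⟨⟨⟨⟨h17, -⟩, -⟩, hpar⟩, -⟩, -⟩ := hin
  simp only [parE, Bool.and_eq_true, decide_eq_true_eq] at hpar
  obtain ⟨⟨⟨⟨⟨c1, c2⟩, c3⟩, -⟩, -⟩, -⟩ := hpar
  obtain ⟨n1, n2⟩ := chkE_sound h17 c2
  have n3 := (le_gq2 h17).trans (castQ c3)
  have hpmR : (e.p.m : ℝ) = (finrank ℝ V : ℝ) := by
    rw [hpm, ← hmm]
    push_cast
    rfl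
  refine nearU_of h5 hpm hmm fun N b j hd => ?_
  exact nearOut_ofX hmm hok hpm n3 n1 n2 ((Rat.cast_le (K := ℝ)).2 h4) hd (hl N b j hd)
    (e7All_sound e.els hels (by rw [hpmR]; exact hd.t0) hd.lsq)

/-- **the near range of one dimension** from an entry of the second form -/
theorem nearU_KB {B : BlkQ} {ν : ℚ} {H D : ℕ → ℚ} {e : EntK}
    (he : entKOK B ν H D e = true) (hmm : e.e.m = finrank ℝ V)
    (hW : finrank ℝ W = finrank ℝ V + 2)
    {F : M → W} (hF : SphImm V F) (hmin : ∀ x n, IsUnitNormal V F x n → meanCurv V F x n = 0)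
    (hlaw : LawB V B ν e.e.m F) : NearU V ν H D F := by
  have hin := he
  simp only [entKOK, Bool.and_eq_true, decide_eq_true_eq] at hin
  exact nearU_K he hmm hW hF hmin (hlaw _ _ _ hin.1.1.1.1.1)

/-- **the near range of a block**, first form of the table -/
theorem nearU_listX [Nonempty M] {B : BlkQ} {ν : ℚ} {H D : ℕ → ℚ} {ents : List EntX} {a n : ℕ}
    (hms : ents.map EntX.m = List.range' a n)
    (hents : ∀ e ∈ ents, entXOK B ν H D e = true)
    (h1 : a ≤ finrank ℝ V) (h2 : finrank ℝ V < a + n) {F : M → W}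
    (hlaw : LawB V B ν (finrank ℝ V) F) : NearU V ν H D F := by
  obtain ⟨e, he, hem⟩ := ent_mem hms h1 h2
  exact nearU_XB (hents e he) hem (by rw [hem]; exact hlaw)

/-- **the near range of a block**, second form of the table -/
theorem nearU_listK {B : BlkQ} {ν : ℚ} {H D : ℕ → ℚ} {ents : List EntK} {a n : ℕ}
    (hms : ents.map (fun e => e.e.m) = List.range' a n)
    (hents : ∀ e ∈ ents, entKOK B ν H D e = true)
    (h1 : a ≤ finrank ℝ V) (h2 : finrank ℝ V < a + n)
    (hW : finrank ℝ W = finrank ℝ V + 2)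
    {F : M → W} (hF : SphImm V F) (hmin : ∀ x n, IsUnitNormal V F x n → meanCurv V F x n = 0)
    (hlaw : LawB V B ν (finrank ℝ V) F) : NearU V ν H D F := by
  obtain ⟨e, he, hem⟩ := ent_mem hms h1 h2
  exact nearU_KB (hents e he) hem hW hF hmin (by rw [hem]; exact hlaw)

end

end Vale.Agent.P224.R2.H253
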